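import Vale.Agent.P224.R2.H146.TailX
import Vale.Agent.P224.R2.H533.Small

/-!
The whole check: columns, box at the origin and the part of large values together.
-/

namespace Vale.Agent.P224.R2.H146

open Vale.Agent.P224.R2.H582

/-- **soundness of the whole check**: the values below the last node -/
theorem check_lt (hU : H533.UniSound) (H : HD) {C : HD.Cert}
    (h : H.check C = true) {x y φ : ℝ} (hx : 0 ≤ x) (hxt : x < C.xt) (hy : 0 ≤ y)
    (hy2 : y ≤ 4 * (H.s + x)) (hφ : 0 ≤ φ) : H.neg x y φ ≤ H.pos x y φ := by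
  unfold HD.check at h
  simp only [Bool.and_eq_true, Nat.ble_eq] at h
  obtain ⟨⟨⟨⟨h1, h2⟩, h3⟩, h4⟩, h5⟩ := h
  rcases H533.cols_sound hU H C.cs 0 C.xt h4 (by simpa using hx) hxt hy hy2 hφ with h6 | h6
  · exact H533.smallOK_sound hU H h3 h1 h2 hx h6.1 hy h6.2 hφ
  · exact h6

/-- **soundness of the whole check**: the large values -/
theorem check_ge (hU : H533.UniSound) (H : HD) {C : HD.Cert}
    (h : H.check C = true) {r φ : ℝ} (hr : ((H.s + C.xt : ℕ) : ℝ) ≤ r) (hφ : 0 ≤ φ) :
    H.negT r φ ≤ H.posT r φ := by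
  unfold HD.check at h
  simp only [Bool.and_eq_true, Nat.ble_eq] at h
  exact tailOK_sound hU H h.2 hr hφ

end Vale.Agent.P224.R2.H146
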