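import Vale.Agent.P224.R2.H869.TlQ

/-!
Reduction of the pointwise inequality to `ρ = 1 + x`, `x ≥ 0`.
-/

namespace Vale.Agent.P224.R2.H146

open Vale.Agent.P224.R2.H869

/-- the rows in the variables `x = ρ - 1 ≥ 0`, `y`, `φ`, with the coefficient `K` in the mixed row;
`q = x (2 + x)` and `τ = y (1 + x) - y² / 4` -/
noncomputable def rowX (M : Mult) (K x y φ : ℝ) : ℝ :=
  M.wP * (φ ^ 2 - M.c1 * (y + x ^ 2))
    + M.wX * ((1 - M.th) * (φ ^ 2 * (x * (2 + x)) ^ 2) - 3 * (M.lam : ℝ) ^ 2 * (φ ^ 2 * (x * (2 + x)))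
      - K * φ ^ 2 - 4 * (M.lam : ℝ) ^ 2 / M.th * ((y * (1 + x) - y ^ 2 / 4) * (1 + x) ^ 2))
    + Mult.cmb M.wF (fun i => φ ^ (2 * i + 2) - (4 * i + 2) * φ ^ (2 * i) * (y * (1 + x) - y ^ 2 / 4)
      - 2 * M.lam * φ ^ (2 * i + 1))
    + Mult.cmb M.wR1 (fun i => RR1 M.lam 1 i (x * (2 + x)))

lemma cmb_mono {l : List ℚ} (hl : ∀ i, (0 : ℝ) ≤ ((l.getD i 0 : ℚ) : ℝ)) {f g : ℕ → ℝ}
    (h : ∀ i, f i ≤ g i) : Mult.cmb l f ≤ Mult.cmb l g :=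
  Finset.sum_le_sum fun i _ => mul_le_mul_of_nonneg_left (h i) (hl i)

lemma RR1_nonpos (Λ : ℝ) (l : ℕ) {q : ℝ} (hq : q ≤ 0) : RR1 Λ 1 l q = 0 := by
  unfold RR1
  rw [max_eq_right hq]
  simp

/-- for `ρ ≥ 1` the rows are at least the function above -/
lemma rowX_le_ge {M : Mult} (hM : M.ok = true) (hQ : M.wQ = []) (hR : M.wR0 = []) {K : ℝ}
    (hK : 2 * (M.lam : ℝ) ^ 2 ≤ K) {x y φ : ℝ} (hx : 0 ≤ x) :
    rowX M K x y φ ≤ M.row (y + x ^ 2) ((1 + x) ^ 2 - 1) φ := by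
  obtain ⟨h1, h2, h3, h4, h5, h6, h7, h8⟩ := Mult.ok_spec hM
  have e0 : (1 + x) ^ 2 - 1 = x * (2 + x) := by ring
  have hq : 0 ≤ x * (2 + x) := by positivity
  unfold rowX Mult.row
  rw [hQ, hR, e0]
  have e1 : Mult.cmb [] (fun i => QQ1 (M.lam : ℝ) M.eta i (x * (2 + x))) = 0 := by
    simp [Mult.cmb]
  have e2 : Mult.cmb [] (fun i => RR1 (M.lam : ℝ) 0 i (x * (2 + x))) = 0 := by
    simp [Mult.cmb]
  rw [e1, e2]
  have e3 : (fun i : ℕ => φ ^ (2 * i + 2)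
      - (4 * (i : ℝ) + 2) * φ ^ (2 * i) * (y * (1 + x) - y ^ 2 / 4) - 2 * (M.lam : ℝ) * φ ^ (2 * i + 1))
      = fun i => FF1 (M.lam : ℝ) i (y + x ^ 2) (x * (2 + x)) φ := by
    funext i
    unfold FF1
    ring
  rw [e3]
  have h4' : (0 : ℝ) ≤ M.wX := by exact_mod_cast h4
  have e4 : (1 - (M.th : ℝ)) * (φ ^ 2 * (x * (2 + x)) ^ 2)
      - 3 * (M.lam : ℝ) ^ 2 * (φ ^ 2 * (x * (2 + x))) - K * φ ^ 2
      - 4 * (M.lam : ℝ) ^ 2 / M.th * ((y * (1 + x) - y ^ 2 / 4) * (1 + x) ^ 2)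
      ≤ XX1 M.lam M.eta M.th (y + x ^ 2) (x * (2 + x)) φ := by
    unfold XX1
    rw [max_eq_left hq, max_eq_right (by linarith : -(x * (2 + x)) ≤ 0)]
    have h9 : 2 * (M.lam : ℝ) ^ 2 * φ ^ 2 ≤ K * φ ^ 2 :=
      mul_le_mul_of_nonneg_right hK (sq_nonneg _)
    have e5 : (y + x ^ 2 - (y + x ^ 2 - x * (2 + x)) ^ 2 / 4) * (1 + x * (2 + x))
        = (y * (1 + x) - y ^ 2 / 4) * (1 + x) ^ 2 := by ring
    rw [e5]
    linarith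
  have h10 := mul_le_mul_of_nonneg_left e4 h4'
  linarith

/-- for `ρ ≤ 1` the rows are at least the function above on the line `x = 0` -/
lemma rowX_le_lt {M : Mult} (hM : M.ok = true) (hQ : M.wQ = []) (hR : M.wR0 = []) {K : ℝ}
    (hth : M.th ≤ 1)
    (hK : 2 * (M.lam : ℝ) ^ 2 ≤ K) (hK' : (M.lam : ℝ) ^ 2 + M.eta ≤ K) {ρ a φ : ℝ} (hρ0 : 0 ≤ ρ)
    (hρ : ρ ≤ 1) (ha0 : 0 ≤ a - (1 - ρ) ^ 2) (ha : a - (1 - ρ) ^ 2 ≤ 4 * ρ) (hφ : 0 ≤ φ) :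
    rowX M K 0 a φ ≤ M.row a (ρ ^ 2 - 1) φ := by
  obtain ⟨h1, h2, h3, h4, h5, h6, h7, h8⟩ := Mult.ok_spec hM
  have hq : ρ ^ 2 - 1 ≤ 0 := by nlinarith
  have haa : 0 ≤ a := by nlinarith [sq_nonneg (1 - ρ)]
  -- the two values of `τ`
  obtain ⟨τ, hτ⟩ : ∃ τ, τ = a - (a - (ρ ^ 2 - 1)) ^ 2 / 4 := ⟨_, rfl⟩
  have hτ0 : 0 ≤ τ := by
    have : τ = (a - (1 - ρ) ^ 2) * (4 * ρ - (a - (1 - ρ) ^ 2)) / 4 := by
      rw [hτ]
      ring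
    rw [this]
    have := mul_nonneg ha0 (sub_nonneg.2 ha)
    linarith
  have hτ1 : τ ≤ a - a ^ 2 / 4 := by
    rw [hτ]
    nlinarith [mul_nonneg haa (by linarith : 0 ≤ 1 - ρ ^ 2), sq_nonneg (1 - ρ ^ 2)]
  unfold rowX Mult.row
  rw [hQ, hR]
  have e1 : Mult.cmb [] (fun i => QQ1 (M.lam : ℝ) M.eta i (ρ ^ 2 - 1)) = 0 := by
    simp [Mult.cmb]
  have e2 : Mult.cmb [] (fun i => RR1 (M.lam : ℝ) 0 i (ρ ^ 2 - 1)) = 0 := by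
    simp [Mult.cmb]
  rw [e1, e2]
  have h1' : (0 : ℝ) ≤ M.lam := by exact_mod_cast h1
  have h2' : (0 : ℝ) < M.th := by exact_mod_cast h2
  have h4' : (0 : ℝ) ≤ M.wX := by exact_mod_cast h4
  have e3 : Mult.cmb M.wF (fun i : ℕ => φ ^ (2 * i + 2)
      - (4 * (i : ℝ) + 2) * φ ^ (2 * i) * (a * (1 + 0) - a ^ 2 / 4)
        - 2 * (M.lam : ℝ) * φ ^ (2 * i + 1))
      ≤ Mult.cmb M.wF (fun i => FF1 (M.lam : ℝ) i a (ρ ^ 2 - 1) φ) := by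
    refine cmb_mono h5 fun i => ?_
    unfold FF1
    rw [← hτ]
    have h9 : 0 ≤ (4 * (i : ℝ) + 2) * φ ^ (2 * i) := by positivity
    have h10 := mul_le_mul_of_nonneg_left hτ1 h9
    have e4 : a * (1 + 0) - a ^ 2 / 4 = a - a ^ 2 / 4 := by ring
    rw [e4]
    linarith
  have e4 : Mult.cmb M.wR1 (fun i => RR1 (M.lam : ℝ) 1 i (0 * (2 + 0)))
      = Mult.cmb M.wR1 (fun i => RR1 (M.lam : ℝ) 1 i (ρ ^ 2 - 1)) := by
    unfold Mult.cmb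
    refine Finset.sum_congr rfl fun i _ => ?_
    simp only
    rw [RR1_nonpos _ _ hq, RR1_nonpos _ _ (by norm_num : (0 : ℝ) * (2 + 0) ≤ 0)]
  have e5 : (1 - (M.th : ℝ)) * (φ ^ 2 * (0 * (2 + 0)) ^ 2)
      - 3 * (M.lam : ℝ) ^ 2 * (φ ^ 2 * (0 * (2 + 0))) - K * φ ^ 2
      - 4 * (M.lam : ℝ) ^ 2 / M.th * ((a * (1 + 0) - a ^ 2 / 4) * (1 + 0) ^ 2)
      ≤ XX1 M.lam M.eta M.th a (ρ ^ 2 - 1) φ := by
    obtain ⟨r, hr⟩ : ∃ r, r = 1 - ρ ^ 2 := ⟨_, rfl⟩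
    have hr0 : 0 ≤ r := by linarith
    have hr1 : r ≤ 1 := by nlinarith
    have eq : ρ ^ 2 - 1 = -r := by linarith
    unfold XX1
    rw [← hτ, eq, max_eq_right (by linarith : -r ≤ 0), neg_neg, max_eq_left hr0]
    have hf : 0 ≤ φ ^ 2 := sq_nonneg _
    have hL : 0 ≤ 4 * (M.lam : ℝ) ^ 2 / M.th := by positivity
    have i1 : 0 ≤ (1 - (M.th : ℝ)) * (φ ^ 2 * (-r) ^ 2) := by
      have : (M.th : ℝ) ≤ 1 := by exact_mod_cast hth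
      have : 0 ≤ 1 - (M.th : ℝ) := by linarith
      positivity
    have i2 : ((M.lam : ℝ) ^ 2 + M.eta) * (φ ^ 2 * r) + 2 * (M.lam : ℝ) ^ 2 * (φ ^ 2 * (1 + -r))
        ≤ K * φ ^ 2 := by
      have j1 := mul_le_mul_of_nonneg_right hK' (mul_nonneg hf hr0)
      have j2 := mul_le_mul_of_nonneg_right hK (mul_nonneg hf (by linarith : 0 ≤ 1 + -r))
      nlinarith
    have i3 : 4 * (M.lam : ℝ) ^ 2 / M.th * (τ * (1 + -r))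
        ≤ 4 * (M.lam : ℝ) ^ 2 / M.th * ((a * (1 + 0) - a ^ 2 / 4) * (1 + 0) ^ 2) := by
      refine mul_le_mul_of_nonneg_left ?_ hL
      have : τ * (1 + -r) ≤ τ := by nlinarith
      linarith
    linarith
  have h10 := mul_le_mul_of_nonneg_left e5 h4'
  rw [e4]
  have e6 : a + 0 ^ 2 = a := by ring
  rw [e6]
  linarith

/-- **the pointwise inequality from the part `ρ ≥ 1`** -/
theorem ptIneq_of (m : ℕ) {G : ℝ → ℝ → ℝ → ℝ} {M : Mult} (hM : M.ok = true) (hQ : M.wQ = [])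
    (hR : M.wR0 = []) (hth : M.th ≤ 1) {c K : ℝ} (hK : 2 * (M.lam : ℝ) ^ 2 ≤ K) (hK' : (M.lam : ℝ) ^ 2 + M.eta ≤ K)
    (h : ∀ x y φ : ℝ, 0 ≤ x → 0 ≤ y → y ≤ 4 * (1 + x) → 0 ≤ φ →
      G (y + x ^ 2) y φ ≤ c * (y + x ^ 2) + rowX M K x y φ) :
    PtIneq m G M.row c := by
  intro ρ y φ hρ0 hy0 hy hφ _
  rcases le_total 1 ρ with hρ | hρ
  · rw [if_pos hρ]
    have h1 := h (ρ - 1) y φ (by linarith) hy0 (by linarith) hφ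
    have h2 := rowX_le_ge hM hQ hR hK (x := ρ - 1) (y := y) (φ := φ) (by linarith)
    have e1 : (1 + (ρ - 1)) ^ 2 - 1 = ρ ^ 2 - 1 := by ring
    have e2 : (1 - ρ) ^ 2 = (ρ - 1) ^ 2 := by ring
    rw [e1] at h2
    rw [e2]
    linarith
  · have e0 : (if 1 ≤ ρ then y else y + (1 - ρ) ^ 2) = y + (1 - ρ) ^ 2 := by
      split_ifs with h0
      · have : ρ = 1 := le_antisymm hρ h0
        rw [this]
        ring
      · rfl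
    rw [e0]
    have ha0 : 0 ≤ y + (1 - ρ) ^ 2 := by positivity
    have h1 := h 0 (y + (1 - ρ) ^ 2) φ le_rfl ha0 (by nlinarith) hφ
    have h2 := rowX_le_lt hM hQ hR hth hK hK' (ρ := ρ) (a := y + (1 - ρ) ^ 2) (φ := φ) hρ0 hρ
      (by linarith) (by linarith) hφ
    have e1 : y + (1 - ρ) ^ 2 + 0 ^ 2 = y + (1 - ρ) ^ 2 := by ring
    rw [e1] at h1
    linarith

end Vale.Agent.P224.R2.H146
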