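import Vale.Agent.P224.R2.H533.Box

/-!
Soundness of the check of the part of large values: the terms of degree `e` of both sides are
multiplied by `S ^ e`, and the comparison of the terms of degree at least `e`, for all `e`, gives the
result by partial summation.
-/

namespace Vale.Agent.P224.R2.H146

open Vale.Agent.P224.R2.H582 Vale.Agent.P224.R2.H533

/-! ### partial summation -/

/-- the partial summation with the weights `S ^ (j + 1) - S ^ j` -/
noncomputable def psum (S : ℝ) (n : ℕ) (F : ℕ → ℝ) : ℝ :=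
  F 0 + ∑ j ∈ Finset.range n, (S ^ (j + 1) - S ^ j) * F (j + 1)

lemma psum_succ (S : ℝ) (n : ℕ) (F : ℕ → ℝ) :
    psum S (n + 1) F = psum S n F + (S ^ (n + 1) - S ^ n) * F (n + 1) := by
  unfold psum
  rw [Finset.sum_range_succ]
  ring

lemma psum_add (S : ℝ) (n : ℕ) (F G : ℕ → ℝ) :
    psum S n (fun j => F j + G j) = psum S n F + psum S n G := by
  unfold psum
  simp only [mul_add, Finset.sum_add_distrib]
  ring

lemma psum_mul (S : ℝ) (n : ℕ) (c : ℝ) (F : ℕ → ℝ) :
    psum S n (fun j => c * F j) = c * psum S n F := by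
  unfold psum
  rw [mul_add, Finset.mul_sum]
  congr 1
  exact Finset.sum_congr rfl fun j _ => by ring

/-- shift of the degree by one -/
lemma psum_shift (S : ℝ) (n : ℕ) {F G : ℕ → ℝ} (h0 : G 0 = F 0) (h1 : ∀ j, G (j + 1) = F j) :
    psum S (n + 1) G = S * psum S n F := by
  induction n with
  | zero =>
    simp only [psum, Finset.sum_range_succ, Finset.sum_range_zero, h0, h1]
    ring
  | succ n ih =>
    rw [psum_succ, ih, psum_succ, h1]
    ring

lemma psum_mono {S : ℝ} (hS : 1 ≤ S) {n : ℕ} {F G : ℕ → ℝ} (h : ∀ j, j ≤ n → F j ≤ G j) :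
    psum S n F ≤ psum S n G := by
  unfold psum
  refine add_le_add (h 0 (Nat.zero_le _)) (Finset.sum_le_sum fun j hj => ?_)
  rw [Finset.mem_range] at hj
  refine mul_le_mul_of_nonneg_left (h _ (by omega)) ?_
  have : S ^ j ≤ S ^ (j + 1) := pow_le_pow_right₀ hS (by omega)
  linarith

lemma psum_ite {S : ℝ} (hS : 1 ≤ S) (n D : ℕ) {p : ℝ} (hp : 0 ≤ p) :
    psum S n (fun j => if j ≤ D then p else 0) ≤ p * S ^ D := by
  have h : psum S n (fun j => if j ≤ D then p else 0) = p * S ^ (min n D) := by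
    induction n with
    | zero => simp [psum]
    | succ n ih =>
      rw [psum_succ, ih]
      by_cases hn : n + 1 ≤ D
      · rw [if_pos hn, min_eq_left hn, min_eq_left (by omega : n ≤ D)]
        ring
      · rw [if_neg hn, min_eq_right (by omega : D ≤ n + 1), min_eq_right (by omega : D ≤ n)]
        ring
  rw [h]
  exact mul_le_mul_of_nonneg_left (pow_le_pow_right₀ hS (min_le_right _ _)) hp

/-! ### the negative part -/

lemma trL_zero (l : List ℕ) : HD.trL 0 l = l := by
  cases l <;> rfl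

lemma trLL_zero (l : List (List ℕ)) : HD.trLL 0 l = l := by
  induction l with
  | nil => rfl
  | cons r l ih =>
    have h : HD.trLL 0 (r :: l) = HD.trL 0 r :: HD.trLL 0 l := rfl
    rw [h, trL_zero, ih]

lemma ev_degL_zero {l : List ℕ} (h : HD.degL 0 l = true) (x : ℝ) : ev l x = 0 := by
  cases l with
  | nil => rfl
  | cons a l => simp [HD.degL] at h

lemma evR_degLL_zero {l : List (List ℕ)} (h : HD.degLL 0 l = true) (x y : ℝ) : evR l x y = 0 := by
  induction l with
  | nil => rfl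
  | cons r l ih =>
    simp only [HD.degLL, Bool.and_eq_true] at h
    simp only [evR, ev_degL_zero h.1, ih h.2]
    ring

lemma ev_psum (S x : ℝ) (l : List ℕ) (n : ℕ) (h : HD.degL (n + 1) l = true) :
    ev l (S * x) = psum S n (fun j => ev (HD.trL j l) x) := by
  induction l generalizing n with
  | nil =>
    have h0 : ∀ j, HD.trL j [] = [] := fun j => by cases j <;> rfl
    simp [h0, ev, psum]
  | cons a l ih =>
    simp only [HD.degL] at h
    cases n with
    | zero =>
      have h1 := ev_degL_zero h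
      simp [psum, HD.trL, ev, h1]
    | succ n =>
      have h2 := ih n h
      have h3 : (fun j => ev (HD.trL j (a :: l)) x)
          = fun j => (if j ≤ 0 then (a : ℝ) else 0) + x * (fun j => ev (HD.trL (j - 1) l) x) j := by
        funext j
        cases j with
        | zero => simp [HD.trL, ev, trL_zero]
        | succ j => simp [HD.trL, ev]
      rw [h3, psum_add, psum_mul, psum_shift S n (F := fun j => ev (HD.trL j l) x)
        (G := fun j => ev (HD.trL (j - 1) l) x) rfl (fun j => rfl), ← h2]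
      have h4 : psum S (n + 1) (fun j => if j ≤ 0 then (a : ℝ) else 0) = a := by
        unfold psum
        simp
      rw [h4]
      simp only [ev]
      ring

lemma evR_psum (S x y : ℝ) (l : List (List ℕ)) (n : ℕ) (h : HD.degLL (n + 1) l = true) :
    evR l (S * x) (S * y) = psum S n (fun j => evR (HD.trLL j l) x y) := by
  induction l generalizing n with
  | nil =>
    have h0 : ∀ j, HD.trLL j [] = [] := fun j => by cases j <;> rfl
    simp [h0, evR, psum]
  | cons r l ih =>
    simp only [HD.degLL, Bool.and_eq_true, Nat.add_sub_cancel] at h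
    have h3 : (fun j => evR (HD.trLL j (r :: l)) x y)
        = fun j => ev (HD.trL j r) x + y * (fun j => evR (HD.trLL (j - 1) l) x y) j := by
      funext j
      simp [HD.trLL, evR]
    rw [h3, psum_add, psum_mul, ← ev_psum S x r n h.1]
    simp only [evR]
    cases n with
    | zero =>
      have h1 := evR_degLL_zero h.2
      simp only [psum, Finset.range_zero, Finset.sum_empty, add_zero]
      rw [h1, Nat.zero_sub, trLL_zero, h1]
      ring
    | succ n =>
      rw [psum_shift S n (F := fun j => evR (HD.trLL j l) x y)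
        (G := fun j => evR (HD.trLL (j - 1) l) x y) rfl (fun j => rfl), ← ih n h.2]
      ring

/-! ### the positive part -/

lemma ev_termT (s r : ℕ) (t : ℕ × ℕ × ℕ × ℕ) (φ : ℝ) :
    ev (HD.termT s r t) φ
      = (t.1 : ℝ) * φ ^ t.2.1 * ((r ^ 2 - s ^ 2 : ℕ) : ℝ) ^ t.2.2.1 * (r : ℝ) ^ (2 * t.2.2.2) := by
  unfold HD.termT
  induction t.2.1 with
  | zero =>
    simp [ev]
  | succ k ih =>
    rw [List.replicate_succ, List.cons_append]
    simp only [ev, ih]
    push_cast
    ring

lemma ev_posE (s r : ℕ) (φ : ℝ) (e : ℕ) (t : ℕ × ℕ × ℕ × ℕ) (l : List (ℕ × ℕ × ℕ × ℕ)) :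
    ev (HD.posE s r e (t :: l)) φ
      = (if e ≤ t.2.1 + 2 * t.2.2.1 + 2 * t.2.2.2 then ev (HD.termT s r t) φ else 0)
        + ev (HD.posE s r e l) φ := by
  by_cases h : e ≤ t.2.1 + 2 * t.2.2.1 + 2 * t.2.2.2
  · have h' : Nat.ble e (t.2.1 + 2 * t.2.2.1 + 2 * t.2.2.2) = true := by rw [Nat.ble_eq]; exact h
    simp only [HD.posE, h', if_true, if_pos h, ev_addL]
  · have h' : Nat.ble e (t.2.1 + 2 * t.2.2.1 + 2 * t.2.2.2) = false := by
      rw [Bool.eq_false_iff]
      exact fun hc => h (by rwa [Nat.ble_eq] at hc)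
    simp only [HD.posE, h', if_neg h, zero_add]
    rfl

lemma psum_pos_le {S : ℝ} (hS : 1 ≤ S) {s r : ℕ} (hsr : s ≤ r) {φ : ℝ} (hφ : 0 ≤ φ) (n : ℕ)
    (l : List (ℕ × ℕ × ℕ × ℕ)) :
    psum S n (fun j => ev (HD.posE s r j l) φ)
      ≤ (l.map fun t => (t.1 : ℝ) * (S * φ) ^ t.2.1 * ((S * r) ^ 2 - (s : ℝ) ^ 2) ^ t.2.2.1
        * (S * r) ^ (2 * t.2.2.2)).sum := by
  induction l with
  | nil => simp [psum, HD.posE, ev]
  | cons t l ih =>
    have h1 : (fun j => ev (HD.posE s r j (t :: l)) φ)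
        = fun j => (if j ≤ t.2.1 + 2 * t.2.2.1 + 2 * t.2.2.2 then ev (HD.termT s r t) φ else 0)
          + ev (HD.posE s r j l) φ := by
      funext j
      exact ev_posE s r φ j t l
    rw [h1, psum_add, List.map_cons, List.sum_cons]
    refine add_le_add ?_ ih
    have hS0 : 0 ≤ S := by linarith
    have h0 : 0 ≤ ev (HD.termT s r t) φ := by
      rw [ev_termT]
      positivity
    refine (psum_ite hS n _ h0).trans ?_
    rw [ev_termT]
    have h2 : s ^ 2 ≤ r ^ 2 := Nat.pow_le_pow_left hsr 2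
    rw [Nat.cast_sub h2]
    push_cast
    have hq : (0 : ℝ) ≤ (r : ℝ) ^ 2 - (s : ℝ) ^ 2 := by
      have : (s : ℝ) ^ 2 ≤ (r : ℝ) ^ 2 := by exact_mod_cast h2
      linarith
    have h3 : S ^ 2 * ((r : ℝ) ^ 2 - (s : ℝ) ^ 2) ≤ (S * r) ^ 2 - (s : ℝ) ^ 2 := by
      have h4 : 1 ≤ S ^ 2 := one_le_pow₀ hS
      nlinarith [sq_nonneg (s : ℝ)]
    calc (t.1 : ℝ) * φ ^ t.2.1 * ((r : ℝ) ^ 2 - (s : ℝ) ^ 2) ^ t.2.2.1 * (r : ℝ) ^ (2 * t.2.2.2)
          * S ^ (t.2.1 + 2 * t.2.2.1 + 2 * t.2.2.2)
        = (t.1 : ℝ) * (S * φ) ^ t.2.1 * (S ^ 2 * ((r : ℝ) ^ 2 - (s : ℝ) ^ 2)) ^ t.2.2.1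
          * (S * r) ^ (2 * t.2.2.2) := by
          rw [mul_pow S φ, mul_pow (S ^ 2), mul_pow S (r : ℝ), pow_add, pow_add, ← pow_mul]
          ring
      _ ≤ _ := by gcongr

/-! ### the check -/

lemma tailE_spec {H : HD} {nodes : List (ℕ × ℕ)} {r : ℕ} (e : ℕ) (h : H.tailE nodes r e = true) :
    ∀ j ≤ e, uniB nodes (HD.posE H.s r j H.PT) (evX (HD.trLL j H.NT) r) = true := by
  induction e with
  | zero =>
    intro j hj
    have : j = 0 := by omega
    subst this
    rw [trLL_zero]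
    exact h
  | succ e ih =>
    intro j hj
    simp only [HD.tailE, Bool.and_eq_true] at h
    rcases Nat.lt_or_ge j (e + 1) with hj' | hj'
    · exact ih h.2 j (by omega)
    · have : j = e + 1 := by omega
      subst this
      exact h.1

/-- **soundness of the check of the part of large values** -/
theorem tailOK_sound (hU : UniSound) (H : HD) {nodes : List (ℕ × ℕ)} {x2 d : ℕ}
    (h : H.tailOK nodes x2 d = true) {r φ : ℝ} (hr : ((H.s + x2 : ℕ) : ℝ) ≤ r) (hφ : 0 ≤ φ) :
    H.negT r φ ≤ H.posT r φ := by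
  unfold HD.tailOK at h
  simp only [Bool.and_eq_true, Nat.ble_eq] at h
  obtain ⟨⟨h1, h2⟩, h3⟩ := h
  obtain ⟨R, hR⟩ : ∃ R : ℕ, R = H.s + x2 := ⟨_, rfl⟩
  rw [← hR] at h3 hr
  have hR1 : (1 : ℝ) ≤ R := by
    have : 1 ≤ R := by omega
    exact_mod_cast this
  have hR0 : (0 : ℝ) < R := by linarith
  obtain ⟨S, hS⟩ : ∃ S : ℝ, S = r / R := ⟨_, rfl⟩
  have hS1 : 1 ≤ S := by
    rw [hS, le_div_iff₀ hR0]
    linarith
  have hS0 : 0 < S := by linarith
  have eR : S * R = r := by
    rw [hS]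
    field_simp
  obtain ⟨v, hv⟩ : ∃ v : ℝ, v = φ / S := ⟨_, rfl⟩
  have hv0 : 0 ≤ v := by
    rw [hv]
    positivity
  have ev' : S * v = φ := by
    rw [hv]
    field_simp
  have e1 : H.negT r φ = psum S d (fun j => evR (HD.trLL j H.NT) R v) := by
    unfold HD.negT
    rw [← eR, ← ev', evR_psum S R v H.NT d h1]
  have e2 : psum S d (fun j => evR (HD.trLL j H.NT) R v)
      ≤ psum S d (fun j => ev (HD.posE H.s R j H.PT) v) := by
    refine psum_mono hS1 fun j hj => ?_
    have h4 := hU _ _ _ (tailE_spec d h3 j hj) v hv0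
    rw [← evR_nat] at h4
    exact h4
  have e3 := psum_pos_le hS1 (by omega : H.s ≤ R) hv0 d H.PT
  rw [eR, ev'] at e3
  calc H.negT r φ = _ := e1
    _ ≤ _ := e2
    _ ≤ _ := e3
    _ = H.posT r φ := rfl

end Vale.Agent.P224.R2.H146
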